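import Vale.Agent.P254D.Gau

open MeasureTheory Set Vale.Agent.P254 Vale.Agent.P254U Vale.Agent.P254B
open scoped ENNReal

namespace Vale.Agent.P254D

theorem db1_mono {G : Set (ℝ × ℝ)} (hG : Pl G) {s t s' t' : ℝ} (h : (s, t) ∈ G)
    (hs : |s'| ≤ |s|) (ht : |t'| ≤ |t|) : (s', t') ∈ G := by
  have key : ∀ {u v : ℝ}, |v| ≤ |u| → ∃ a b : ℝ, 0 ≤ a ∧ 0 ≤ b ∧ a + b = 1 ∧
      a * u + b * (-u) = v := by
    intro u v huv
    by_cases hu : u = 0
    · subst hu
      rw [abs_zero] at huv
      have hv : v = 0 := abs_nonpos_iff.1 huv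
      exact ⟨1, 0, by norm_num, le_rfl, by norm_num, by rw [hv]; ring⟩
    · have h1 : |v / u| ≤ 1 := by
        rw [abs_div, div_le_one (abs_pos.2 hu)]
        exact huv
      obtain ⟨h2, h3⟩ := abs_le.1 h1
      refine ⟨(1 + v / u) / 2, (1 - v / u) / 2, by linarith, by linarith, by ring, ?_⟩
      field_simp
      ring
  have h1 : (s', t) ∈ G := by
    obtain ⟨a, b, ha, hb, hab, he⟩ := key hs
    have h2 := hG.convex h (hG.s1 _ h) ha hb hab
    have h3 : a • (s, t) + b • ((-(s, t).1, (s, t).2) : ℝ × ℝ) = (s', t) := by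
      refine Prod.ext ?_ ?_
      · show a * s + b * (-s) = s'
        exact he
      · show a * t + b * t = t
        rw [← add_mul, hab, one_mul]
    rwa [h3] at h2
  obtain ⟨a, b, ha, hb, hab, he⟩ := key ht
  have h2 := hG.convex h1 (hG.s2 _ h1) ha hb hab
  have h3 : a • (s', t) + b • (((s', t).1, -(s', t).2) : ℝ × ℝ) = (s', t') := by
    refine Prod.ext ?_ ?_
    · show a * s' + b * s' = s'
      rw [← add_mul, hab, one_mul]
    · show a * t + b * (-t) = t'
      exact he
  rwa [h3] at h2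

theorem db1_int {G : Set (ℝ × ℝ)} (hG : Pl G) : (0 : ℝ × ℝ) ∈ interior G := by
  obtain ⟨z, hz⟩ := hG.int
  have hneg : -z ∈ interior G := by
    obtain ⟨t, ht1, ht2, ht3⟩ := mem_interior.1 hz
    refine mem_interior.2 ⟨-t, ?_, ht2.neg, by simpa using ht3⟩
    intro y hy
    have h1 : -y ∈ G := ht1 (by simpa using hy)
    have h2 := hG.s2 _ (hG.s1 _ h1)
    have h3 : ((-(-y).1, -(-(-y).1, (-y).2).2) : ℝ × ℝ) = y := by
      refine Prod.ext ?_ ?_ <;> simp
    have h4 : ((-(-y).1, (-y).2).1, -((-(-y).1, (-y).2) : ℝ × ℝ).2) = y := by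
      refine Prod.ext ?_ ?_ <;> simp
    rw [h4] at h2
    exact h2
  have h := hG.convex.interior hz hneg (by norm_num : (0 : ℝ) ≤ 1 / 2)
    (by norm_num : (0 : ℝ) ≤ 1 / 2) (by norm_num)
  have h0 : (1 / 2 : ℝ) • z + (1 / 2 : ℝ) • (-z) = 0 := by
    rw [smul_neg, add_neg_cancel]
  rwa [h0] at h

/-- DB1. convex: gauges are convex and `G` is closed under decreasing absolute values; closed:
gauges are continuous; bounded: `gauge` large outside a bounded set; `0` is interior. -/
theorem dsum_body {m n : ℕ} {G : Set (ℝ × ℝ)} (hG : Pl G)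
    {K : Set (Fin m → ℝ)} {L : Set (Fin n → ℝ)} (hK : IsBody K) (hL : IsBody L)
    (hKs : Unconditional K) (hLs : Unconditional L) : IsBody (dsum G K L) := by
  have hK0 := nhds_zero hK hKs
  have hL0 := nhds_zero hL hLs
  have cK : Continuous (gauge K) := continuous_gauge hK.2.1 hK0
  have cL : Continuous (gauge L) := continuous_gauge hL.2.1 hL0
  have cP : Continuous (fun x : Fin (m + n) → ℝ => fun i => x (Fin.castAdd n i)) :=
    continuous_pi fun i => continuous_apply _
  have cQ : Continuous (fun x : Fin (m + n) → ℝ => fun j => x (Fin.natAdd m j)) :=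
    continuous_pi fun i => continuous_apply _
  have cF : Continuous (fun x : Fin (m + n) → ℝ =>
      (gauge K (fun i => x (Fin.castAdd n i)), gauge L (fun j => x (Fin.natAdd m j)))) :=
    (cK.comp cP).prodMk (cL.comp cQ)
  refine ⟨?_, ?_, ?_⟩
  · -- compact
    refine Metric.isCompact_of_isClosed_isBounded (hG.compact.isClosed.preimage cF) ?_
    obtain ⟨R, hR⟩ := hG.compact.isBounded.exists_norm_le
    obtain ⟨M, hM⟩ := hK.1.isBounded.exists_norm_le
    obtain ⟨M', hM'⟩ := hL.1.isBounded.exists_norm_le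
    have hM0 : 0 ≤ M := (norm_nonneg _).trans (hM 0 (mem_of_mem_nhds hK0))
    have hM0' : 0 ≤ M' := (norm_nonneg _).trans (hM' 0 (mem_of_mem_nhds hL0))
    have hR0 : 0 ≤ R := (norm_nonneg _).trans (hR 0 (interior_subset (db1_int hG)))
    refine isBounded_iff_forall_norm_le.2 ⟨(R + 1) * M + (R + 1) * M', ?_⟩
    intro x hx
    have hx' := hR _ hx
    have h1 : gauge K (fun i => x (Fin.castAdd n i)) ≤ R + 1 := by
      have h2 := (norm_fst_le _).trans hx'
      have h3 := (Real.le_norm_self _).trans h2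
      exact h3.trans (by linarith)
    have h1' : gauge L (fun j => x (Fin.natAdd m j)) ≤ R + 1 := by
      have h2 := (norm_snd_le _).trans hx'
      have h3 := (Real.le_norm_self _).trans h2
      exact h3.trans (by linarith)
    rw [gauge_le hK hK0 (by linarith)] at h1
    rw [gauge_le hL hL0 (by linarith)] at h1'
    obtain ⟨y, hy, hyx⟩ := h1
    obtain ⟨y', hy', hyx'⟩ := h1'
    have hb : ∀ i, ‖x (Fin.castAdd n i)‖ ≤ (R + 1) * M := by
      intro i
      have h4 : x (Fin.castAdd n i) = (R + 1) * y i := (congrFun hyx i).symm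
      rw [h4, norm_mul, Real.norm_of_nonneg (by linarith : (0 : ℝ) ≤ R + 1)]
      exact mul_le_mul_of_nonneg_left ((norm_le_pi_norm y i).trans (hM y hy)) (by linarith)
    have hb' : ∀ j, ‖x (Fin.natAdd m j)‖ ≤ (R + 1) * M' := by
      intro j
      have h4 : x (Fin.natAdd m j) = (R + 1) * y' j := (congrFun hyx' j).symm
      rw [h4, norm_mul, Real.norm_of_nonneg (by linarith : (0 : ℝ) ≤ R + 1)]
      exact mul_le_mul_of_nonneg_left ((norm_le_pi_norm y' j).trans (hM' y' hy')) (by linarith)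
    have hp1 : 0 ≤ (R + 1) * M := mul_nonneg (by linarith) hM0
    have hp2 : 0 ≤ (R + 1) * M' := mul_nonneg (by linarith) hM0'
    refine (pi_norm_le_iff_of_nonneg (add_nonneg hp1 hp2)).2 fun k => ?_
    refine Fin.addCases (fun i => ?_) (fun j => ?_) k
    · exact (hb i).trans (by linarith)
    · exact (hb' j).trans (by linarith)
  · -- convex
    intro x hx y hy a b ha hb hab
    have e1 : (fun i => (a • x + b • y) (Fin.castAdd n i)) =
        a • (fun i => x (Fin.castAdd n i)) + b • (fun i => y (Fin.castAdd n i)) := rfl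
    have e2 : (fun j => (a • x + b • y) (Fin.natAdd m j)) =
        a • (fun j => x (Fin.natAdd m j)) + b • (fun j => y (Fin.natAdd m j)) := rfl
    have g1 : gauge K (fun i => (a • x + b • y) (Fin.castAdd n i)) ≤
        a * gauge K (fun i => x (Fin.castAdd n i)) + b * gauge K (fun i => y (Fin.castAdd n i)) := by
      rw [e1]
      refine (gauge_add_le hK.2.1 (absorbent_nhds_zero hK0) _ _).trans ?_
      rw [gauge_smul_of_nonneg ha, gauge_smul_of_nonneg hb, smul_eq_mul, smul_eq_mul]
    have g2 : gauge L (fun j => (a • x + b • y) (Fin.natAdd m j)) ≤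
        a * gauge L (fun j => x (Fin.natAdd m j)) + b * gauge L (fun j => y (Fin.natAdd m j)) := by
      rw [e2]
      refine (gauge_add_le hL.2.1 (absorbent_nhds_zero hL0) _ _).trans ?_
      rw [gauge_smul_of_nonneg ha, gauge_smul_of_nonneg hb, smul_eq_mul, smul_eq_mul]
    have h1 := hG.convex hx hy ha hb hab
    refine db1_mono hG (s := a * gauge K (fun i => x (Fin.castAdd n i)) +
      b * gauge K (fun i => y (Fin.castAdd n i)))
      (t := a * gauge L (fun j => x (Fin.natAdd m j)) +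
      b * gauge L (fun j => y (Fin.natAdd m j))) h1 ?_ ?_
    · rw [abs_of_nonneg (gauge_nonneg _)]
      exact g1.trans (le_abs_self _)
    · rw [abs_of_nonneg (gauge_nonneg _)]
      exact g2.trans (le_abs_self _)
  · -- interior
    refine ⟨0, ?_⟩
    rw [mem_interior]
    refine ⟨_, preimage_mono interior_subset, isOpen_interior.preimage cF, ?_⟩
    show (gauge K (fun _ => (0 : ℝ)), gauge L (fun _ => (0 : ℝ))) ∈ interior G
    have z1 : gauge K (fun _ => (0 : ℝ)) = 0 := gauge_zero
    have z2 : gauge L (fun _ => (0 : ℝ)) = 0 := gauge_zero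
    rw [z1, z2]
    exact db1_int hG

theorem DB2_smul {m : ℕ} {K : Set (Fin m → ℝ)} (hKs : Unconditional K) (δ : Fin m → ℝ)
    (hδ : ∀ i, δ i = 1 ∨ δ i = -1) (x : Fin m → ℝ) (r : ℝ)
    (h : ∃ k ∈ K, r • k = x) : ∃ k ∈ K, r • k = fun i => δ i * x i := by
  obtain ⟨k, hk, rfl⟩ := h
  refine ⟨fun i => δ i * k i, hKs k hk δ hδ, ?_⟩
  ext i
  simp only [Pi.smul_apply, smul_eq_mul]
  ring

theorem DB2_gauge {m : ℕ} {K : Set (Fin m → ℝ)} (hKs : Unconditional K) (δ : Fin m → ℝ)
    (hδ : ∀ i, δ i = 1 ∨ δ i = -1) (x : Fin m → ℝ) :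
    gauge K (fun i => δ i * x i) = gauge K x := by
  have hδ2 : ∀ i, δ i * δ i = 1 := by
    intro i
    rcases hδ i with h | h <;> rw [h] <;> norm_num
  have hback : (fun i => δ i * (fun i => δ i * x i) i) = x := by
    ext i
    show δ i * (δ i * x i) = x i
    rw [← mul_assoc, hδ2 i, one_mul]
  unfold gauge
  congr 1
  ext r
  constructor
  · rintro ⟨hr, h⟩
    refine ⟨hr, ?_⟩
    rw [Set.mem_smul_set] at h ⊢
    have h1 := DB2_smul hKs δ hδ _ r h
    rw [hback] at h1
    exact h1
  · rintro ⟨hr, h⟩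
    refine ⟨hr, ?_⟩
    rw [Set.mem_smul_set] at h ⊢
    exact DB2_smul hKs δ hδ x r h

/-- DB2. the gauge is invariant under sign changes -/
theorem dsum_uncond {m n : ℕ} {G : Set (ℝ × ℝ)}
    {K : Set (Fin m → ℝ)} {L : Set (Fin n → ℝ)} (hKs : Unconditional K)
    (hLs : Unconditional L) : Unconditional (dsum G K L) := by
  intro x hx ε hε
  have h1 := DB2_gauge hKs (fun i => ε (Fin.castAdd n i)) (fun i => hε _)
    (fun i => x (Fin.castAdd n i))
  have h2 := DB2_gauge hLs (fun j => ε (Fin.natAdd m j)) (fun j => hε _)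
    (fun j => x (Fin.natAdd m j))
  show (gauge K (fun i => ε (Fin.castAdd n i) * x (Fin.castAdd n i)),
    gauge L (fun j => ε (Fin.natAdd m j) * x (Fin.natAdd m j))) ∈ G
  rw [h1, h2]
  exact hx

end Vale.Agent.P254D
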