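import Vale.Agent.P254D.Mom
import Vale.Agent.P254U.AllU

open MeasureTheory Set Vale.Agent.P254 Vale.Agent.P254U Vale.Agent.P254B
open scoped ENNReal

namespace Vale.Agent.P254D

/-- The class generated by one-symmetric bodies, generalized Orlicz balls and bipartite
intersections of planar cylinders under direct sums with respect to arbitrary planar bodies
symmetric in both axes. -/
inductive Cls : (n : ℕ) → Set (Fin n → ℝ) → Prop
  | sym {n : ℕ} {K : Set (Fin n → ℝ)} (hn : 1 ≤ n) (hK : IsBody K)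
      (hs : Vale.Agent.P254.OneSymmetric K) : Cls n K
  | orl {n : ℕ} {φ : Fin n → ℝ → ℝ} (hn : 1 ≤ n) (hφ : ∀ i, Young (φ i)) : Cls n (orlBall φ)
  | cyl {p q : ℕ} {G : Fin p → Fin q → Set (ℝ × ℝ)} (hp : 1 ≤ p) (hq : 1 ≤ q)
      (hG : ∀ i j, Pl (G i j)) : Cls (p + q) (bip G)
  | sum {m n : ℕ} {G : Set (ℝ × ℝ)} {K : Set (Fin m → ℝ)} {L : Set (Fin n → ℝ)} (hG : Pl G)
      (hK : Cls m K) (hL : Cls n L) : Cls (m + n) (dsum G K L)

theorem Cls.props {n : ℕ} {K : Set (Fin n → ℝ)} (h : Cls n K) :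
    1 ≤ n ∧ IsBody K ∧ Unconditional K ∧ MomProp K := by
  induction h with
  | sym hn hK hs => exact ⟨hn, hK, oneSym_uncond hs, oneSym_momProp hn hK hs⟩
  | orl hn hφ => exact ⟨hn, orlBall_body hφ, orlBall_uncond _, orlBall_momProp hn hφ⟩
  | cyl hp hq hG => exact ⟨by omega, bip_body hG hp hq, bip_uncond hG, bip_mom hG hp hq⟩
  | sum hG _ _ ihK ihL =>
    obtain ⟨hm, hKb, hKs, hKm⟩ := ihK
    obtain ⟨hn, hLb, hLs, hLm⟩ := ihL
    exact ⟨by omega, dsum_body hG hKb hLb hKs hLs, dsum_uncond hKs hLs,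
      dsum_mom hm hn hG hKb hLb hKs hLs hKm hLm⟩

end Vale.Agent.P254D
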