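import Vale.Agent.P254D.Defs

open MeasureTheory Set Vale.Agent.P254 Vale.Agent.P254U Vale.Agent.P254B
open scoped ENNReal

namespace Vale.Agent.P254D

theorem C12_eq (m : ℕ) : cube m = Set.Icc (fun _ => (-1 : ℝ)) (fun _ => 1) := by
  ext x
  simp only [cube, Set.mem_Icc, Pi.le_def, abs_le]
  exact forall_and

theorem C12_pi (m : ℕ) : cube m = Set.pi Set.univ (fun _ => Set.Icc (-1 : ℝ) 1) := by
  rw [C12_eq, Set.pi_univ_Icc]

/-- C1 -/
theorem cube_body (m : ℕ) : IsBody (cube m) := by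
  refine ⟨?_, ?_, ?_⟩
  · rw [C12_eq]
    exact isCompact_Icc
  · rw [C12_eq]
    exact convex_Icc _ _
  · refine ⟨0, ?_⟩
    rw [C12_pi, interior_pi_set Set.finite_univ]
    intro i _
    rw [interior_Icc]
    exact ⟨by norm_num, by norm_num⟩

theorem cube_uncond (m : ℕ) : Unconditional (cube m) := by
  intro x hx ε hε i
  rw [abs_mul]
  have h1 : |ε i| = 1 := by
    rcases hε i with h | h <;> rw [h] <;> simp
  rw [h1, one_mul]
  exact hx i

/-- C2 -/
theorem cube_vol (m : ℕ) : volume (cube m) = 2 ^ m := by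
  rw [C12_eq, Real.volume_Icc_pi]
  have h1 : ENNReal.ofReal (1 - -1) = 2 := by
    have : (1 : ℝ) - -1 = 2 := by norm_num
    rw [this]
    exact ENNReal.ofReal_ofNat 2
  simp only [h1, Finset.prod_const, Finset.card_univ, Fintype.card_fin]

theorem C12_one : ∫⁻ t in Set.Icc (-1 : ℝ) 1, ENNReal.ofReal |t| = 1 := by
  have h1 : IntegrableOn (fun t : ℝ => |t|) (Set.Icc (-1 : ℝ) 1) :=
    continuous_abs.continuousOn.integrableOn_Icc
  rw [← ofReal_integral_eq_lintegral_ofReal h1 (Filter.Eventually.of_forall fun t => abs_nonneg t),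
    integral_Icc_eq_integral_Ioc, ← intervalIntegral.integral_of_le (by norm_num)]
  have h2 : ∫ t in (-1 : ℝ)..0, |t| = 1 / 2 := by
    rw [intervalIntegral.integral_congr (g := fun t => -t)]
    · rw [intervalIntegral.integral_neg, integral_id]
      norm_num
    · intro t ht
      rw [Set.uIcc_of_le (by norm_num)] at ht
      exact abs_of_nonpos ht.2
  have h3 : ∫ t in (0 : ℝ)..1, |t| = 1 / 2 := by
    rw [intervalIntegral.integral_congr (g := fun t => t)]
    · simp
    · intro t ht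
      rw [Set.uIcc_of_le (by norm_num)] at ht
      exact abs_of_nonneg ht.1
  rw [← intervalIntegral.integral_add_adjacent_intervals
    (continuous_abs.intervalIntegrable (-1) 0) (continuous_abs.intervalIntegrable 0 1), h2, h3]
  norm_num

theorem cube_am (m : ℕ) (i : Fin m) : 2 * am (cube m) i = 2 ^ m := by
  unfold am
  rw [C12_pi, volume_pi, Measure.restrict_pi_pi]
  have hf : Measurable (fun t : ℝ => ENNReal.ofReal |t|) := by fun_prop
  have h1 : ∫⁻ x : Fin m → ℝ, ENNReal.ofReal |x i| ∂(Measure.pi fun _ : Fin m =>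
      (volume : Measure ℝ).restrict (Set.Icc (-1 : ℝ) 1)) =
      ∫⁻ t, ENNReal.ofReal |t| ∂((Measure.pi fun _ : Fin m =>
        (volume : Measure ℝ).restrict (Set.Icc (-1 : ℝ) 1)).map (Function.eval i)) := by
    rw [lintegral_map hf (measurable_pi_apply i)]
  rw [h1, Measure.pi_map_eval, lintegral_smul_measure, C12_one]
  have h2 : (volume : Measure ℝ).restrict (Set.Icc (-1 : ℝ) 1) Set.univ = 2 := by
    rw [Measure.restrict_apply_univ, Real.volume_Icc]
    have : (1 : ℝ) - -1 = 2 := by norm_num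
    rw [this]
    exact ENNReal.ofReal_ofNat 2
  simp only [h2, Finset.prod_const, smul_eq_mul, mul_one]
  rw [Finset.card_erase_of_mem (Finset.mem_univ i), Finset.card_univ, Fintype.card_fin, ← pow_succ',
    Nat.sub_add_cancel (by have := i.2; omega)]

theorem C3_gauge (m : ℕ) (x : Fin m → ℝ) : gauge (cube m) x = ‖x‖ := by
  have h : cube m = Metric.closedBall (0 : Fin m → ℝ) 1 := by
    ext y
    simp only [cube, Set.mem_setOf_eq, mem_closedBall_zero_iff]
    rw [pi_norm_le_iff_of_nonneg zero_le_one]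
    simp [Real.norm_eq_abs]
  rw [h, gauge_closedBall zero_le_one, div_one]

theorem C3_seg {a a' : ℝ} (h : |a'| ≤ |a|) : ∃ t : ℝ, 0 ≤ t ∧ t ≤ 1 ∧ t * a + (1 - t) * (-a) = a' := by
  by_cases ha : a = 0
  · subst ha
    have : a' = 0 := by simpa using h
    exact ⟨0, le_rfl, zero_le_one, by simp [this]⟩
  · have h1 : |a' / a| ≤ 1 := by
      rw [abs_div]; exact (div_le_one (abs_pos.mpr ha)).mpr h
    obtain ⟨h2, h3⟩ := abs_le.mp h1
    refine ⟨(1 + a' / a) / 2, by linarith, by linarith, ?_⟩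
    field_simp; ring

theorem C3_mono {G : Set (ℝ × ℝ)} (hG : Pl G) {a b a' b' : ℝ} (h : (a, b) ∈ G) (ha : |a'| ≤ |a|)
    (hb : |b'| ≤ |b|) : (a', b') ∈ G := by
  obtain ⟨t, t0, t1, te⟩ := C3_seg ha
  have h1 : (a', b) ∈ G := by
    have := hG.convex h (hG.s1 _ h) t0 (by linarith : 0 ≤ 1 - t) (by ring)
    convert this using 1
    ext
    · simp [← te]
    · simp; ring
  obtain ⟨s, s0, s1, se⟩ := C3_seg hb
  have := hG.convex h1 (hG.s2 _ h1) s0 (by linarith : 0 ≤ 1 - s) (by ring)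
  convert this using 1
  ext
  · simp; ring
  · simp [← se]

theorem C3_max {m : ℕ} (hm : 1 ≤ m) (x : Fin m → ℝ) : ∃ i, ‖x‖ = |x i| := by
  haveI : Nonempty (Fin m) := ⟨⟨0, hm⟩⟩
  obtain ⟨i, hi⟩ := Finite.exists_max (fun i => |x i|)
  refine ⟨i, le_antisymm ?_ ?_⟩
  · exact (pi_norm_le_iff_of_nonneg (abs_nonneg _)).mpr fun j => by simpa [Real.norm_eq_abs] using hi j
  · simpa [Real.norm_eq_abs] using norm_le_pi_norm x i

/-- C3. `gauge (cube m) x ≤ s ↔ ∀ i, |x i| ≤ s` for `s ≥ 0`, `gauge (cube m) x = |x i₀|` for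
some `i₀` (here `1 ≤ m`), `G` is closed under decreasing absolute values (`Pl`). -/
theorem cube_dsum {m n : ℕ} (hm : 1 ≤ m) (hn : 1 ≤ n) {G : Set (ℝ × ℝ)} (hG : Pl G) :
    dsum G (cube m) (cube n) = bip (fun (_ : Fin m) (_ : Fin n) => G) := by
  ext x
  simp only [dsum, bip, Set.mem_setOf_eq, C3_gauge]
  constructor
  · intro h i j
    refine C3_mono hG h ?_ ?_
    · rw [abs_of_nonneg (norm_nonneg _)]
      exact norm_le_pi_norm (fun i => x (Fin.castAdd n i)) i
    · rw [abs_of_nonneg (norm_nonneg _)]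
      exact norm_le_pi_norm (fun j => x (Fin.natAdd m j)) j
  · intro h
    obtain ⟨i, hi⟩ := C3_max hm (fun i => x (Fin.castAdd n i))
    obtain ⟨j, hj⟩ := C3_max hn (fun j => x (Fin.natAdd m j))
    refine C3_mono hG (h i j) ?_ ?_
    · rw [hi, abs_abs]
    · rw [hj, abs_abs]

end Vale.Agent.P254D
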