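import Vale.Agent.P254U.Defs
import Vale.Agent.P254B.Defs

open MeasureTheory Set Vale.Agent.P254 Vale.Agent.P254U Vale.Agent.P254B
open scoped ENNReal

namespace Vale.Agent.P254D

/-- the direct sum of `K` and `L` with respect to the planar body `G` -/
def dsum {m n : ℕ} (G : Set (ℝ × ℝ)) (K : Set (Fin m → ℝ)) (L : Set (Fin n → ℝ)) :
    Set (Fin (m + n) → ℝ) :=
  {x | (gauge K (fun i => x (Fin.castAdd n i)), gauge L (fun j => x (Fin.natAdd m j))) ∈ G}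

/-- weighted area of the positive quadrant part of `G` -/
noncomputable def wA (G : Set (ℝ × ℝ)) (a b : ℕ) : ℝ≥0∞ :=
  ∫⁻ s in Ioi (0 : ℝ), ∫⁻ t in Ioi (0 : ℝ), G.indicator (fun _ => (1 : ℝ≥0∞)) (s, t) *
    (ENNReal.ofReal (a * s ^ (a - 1)) * ENNReal.ofReal (b * t ^ (b - 1)))

/-- the cube -/
def cube (m : ℕ) : Set (Fin m → ℝ) := {x | ∀ i, |x i| ≤ 1}

/-- first absolute moment -/
noncomputable def am {m : ℕ} (K : Set (Fin m → ℝ)) (i : Fin m) : ℝ≥0∞ :=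
  ∫⁻ x in K, ENNReal.ofReal |x i|

end Vale.Agent.P254D
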