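import Vale.Agent.P254D.Defs

open MeasureTheory Set Vale.Agent.P254 Vale.Agent.P254U Vale.Agent.P254B
open scoped ENNReal Pointwise

namespace Vale.Agent.P254D

/-- G0. `K = -K` convex with an interior point. -/
theorem nhds_zero {m : ℕ} {K : Set (Fin m → ℝ)} (hK : IsBody K) (hs : Unconditional K) :
    K ∈ nhds (0 : Fin m → ℝ) := by
  obtain ⟨hc, hconv, x, hx⟩ := hK
  have hneg : -x ∈ K := by
    have h := hs x (interior_subset hx) (fun _ => -1) (fun _ => Or.inr rfl)
    have e : (fun i => (-1 : ℝ) * x i) = -x := by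
      funext i
      simp
    rw [← e]
    exact h
  have h2 := hconv.combo_interior_self_mem_interior hx hneg (a := 1 / 2) (b := 1 / 2)
    (by norm_num) (by norm_num) (by norm_num)
  have e : (1 / 2 : ℝ) • x + (1 / 2 : ℝ) • -x = 0 := by
    rw [smul_neg, add_neg_cancel]
  rw [e] at h2
  exact mem_interior_iff_mem_nhds.1 h2

/-- G1. `gauge_le_one_iff_mem_closure`, homogeneity. -/
theorem gauge_le {m : ℕ} {K : Set (Fin m → ℝ)} (hK : IsBody K) (h0 : K ∈ nhds (0 : Fin m → ℝ))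
    {s : ℝ} (hs : 0 < s) (x : Fin m → ℝ) : gauge K x ≤ s ↔ x ∈ s • K := by
  rw [mem_smul_set_iff_inv_smul_mem₀ hs.ne']
  have h1 := gauge_le_one_iff_mem_closure (x := s⁻¹ • x) hK.2.1 h0
  rw [hK.1.isClosed.closure_eq, gauge_smul_of_nonneg (inv_nonneg.2 hs.le), smul_eq_mul,
    inv_mul_le_iff₀ hs, mul_one] at h1
  exact h1

/-- G2. the preimage of `(-∞, s]` has weighted measure `s ^ (m + a)` times that of `K`. -/
theorem gauge_sub {m a : ℕ} {K : Set (Fin m → ℝ)} (hK : IsBody K)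
    (h0 : K ∈ nhds (0 : Fin m → ℝ)) {w : (Fin m → ℝ) → ℝ≥0∞} (hw : Measurable w)
    (hwa : ∀ (s : ℝ) (x : Fin m → ℝ), 0 < s → w (s • x) = ENNReal.ofReal (s ^ a) * w x)
    {s : ℝ} (hs : 0 < s) :
    ∫⁻ x in {x | gauge K x ≤ s}, w x = ENNReal.ofReal (s ^ (m + a)) * ∫⁻ x in K, w x := by
  have hset : {x | gauge K x ≤ s} = s • K := by
    ext x
    exact gauge_le hK h0 hs x
  rw [hset]
  have hne : s ≠ 0 := hs.ne'
  have hmap : Measure.map (fun x : Fin m → ℝ => s • x) volume = ENNReal.ofReal |(s ^ m)⁻¹| • volume := by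
    have h := Measure.map_addHaar_smul (volume : Measure (Fin m → ℝ)) hne
    rw [Module.finrank_fin_fun] at h
    exact h
  have hemb : MeasurableEmbedding (fun x : Fin m → ℝ => s • x) :=
    (Homeomorph.smulOfNeZero s hne).measurableEmbedding
  have hpre : (fun x : Fin m → ℝ => s • x) ⁻¹' (s • K) = K := by
    ext x
    exact Set.smul_mem_smul_set_iff₀ hne K x
  have h1 : ∫⁻ x in s • K, w x ∂(Measure.map (fun x : Fin m → ℝ => s • x) volume) = ∫⁻ x in K, w (s • x) := by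
    rw [hemb.restrict_map, hemb.lintegral_map, hpre]
  have h2 : ∫⁻ x in K, w (s • x) = ENNReal.ofReal (s ^ a) * ∫⁻ x in K, w x := by
    rw [← lintegral_const_mul _ hw]
    refine lintegral_congr (fun x => ?_)
    exact hwa s x hs
  rw [hmap, Measure.restrict_smul, lintegral_smul_measure, h2, smul_eq_mul] at h1
  have hsm : 0 < s ^ m := by positivity
  have h3 : ENNReal.ofReal (s ^ m) * ENNReal.ofReal |(s ^ m)⁻¹| = 1 := by
    rw [← ENNReal.ofReal_mul hsm.le, abs_of_pos (inv_pos.mpr hsm), mul_inv_cancel₀ hsm.ne', ENNReal.ofReal_one]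
  calc ∫⁻ x in s • K, w x = (ENNReal.ofReal (s ^ m) * ENNReal.ofReal |(s ^ m)⁻¹|) * ∫⁻ x in s • K, w x := by
        rw [h3, one_mul]
    _ = ENNReal.ofReal (s ^ m) * (ENNReal.ofReal |(s ^ m)⁻¹| * ∫⁻ x in s • K, w x) := by rw [mul_assoc]
    _ = ENNReal.ofReal (s ^ m) * (ENNReal.ofReal (s ^ a) * ∫⁻ x in K, w x) := by rw [h1]
    _ = ENNReal.ofReal (s ^ (m + a)) * ∫⁻ x in K, w x := by
        rw [← mul_assoc, ← ENNReal.ofReal_mul hsm.le, pow_add]

theorem G3_int (N : ℕ) (hN : 1 ≤ N) (s : ℝ) (hs : 0 ≤ s) :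
    ∫⁻ t in Ioc (0 : ℝ) s, ENNReal.ofReal ((N : ℝ) * t ^ (N - 1)) = ENNReal.ofReal (s ^ N) := by
  have hc : Continuous fun t : ℝ => (N : ℝ) * t ^ (N - 1) := by fun_prop
  rw [← ofReal_integral_eq_lintegral_ofReal hc.integrableOn_Ioc]
  · congr 1
    rw [← intervalIntegral.integral_of_le hs, intervalIntegral.integral_const_mul, integral_pow]
    obtain ⟨k, rfl⟩ : ∃ k, N = k + 1 := ⟨N - 1, by omega⟩
    have h1 : ((k : ℝ) + 1) ≠ 0 := by positivity
    simp only [Nat.add_sub_cancel, Nat.cast_add, Nat.cast_one]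
    rw [zero_pow (Nat.succ_ne_zero k), sub_zero]
    field_simp
  · filter_upwards [ae_restrict_mem measurableSet_Ioc] with t ht
    have : 0 ≤ t := ht.1.le
    show (0 : ℝ) ≤ (N : ℝ) * t ^ (N - 1)
    positivity

/-- the radial measure -/
noncomputable def G3_nu (N : ℕ) : Measure ℝ :=
  (volume.restrict (Ioi (0 : ℝ))).withDensity (fun s => ENNReal.ofReal ((N : ℝ) * s ^ (N - 1)))

theorem G3_meas (N : ℕ) : Measurable fun s : ℝ => ENNReal.ofReal ((N : ℝ) * s ^ (N - 1)) := by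
  fun_prop

theorem G3_nu_Iic (N : ℕ) (hN : 1 ≤ N) (s : ℝ) :
    G3_nu N (Iic s) = ENNReal.ofReal ((max s 0) ^ N) := by
  unfold G3_nu
  rw [withDensity_apply _ measurableSet_Iic, Measure.restrict_restrict measurableSet_Iic,
    inter_comm, Ioi_inter_Iic]
  rcases le_total s 0 with h | h
  · rw [Ioc_eq_empty (by linarith), Measure.restrict_empty, lintegral_zero_measure, max_eq_right h,
      zero_pow (by omega), ENNReal.ofReal_zero]
  · rw [G3_int N hN s h, max_eq_left h]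

theorem G3_eq {m a : ℕ} (hm : 1 ≤ m) {K : Set (Fin m → ℝ)} (hK : IsBody K)
    (h0 : K ∈ nhds (0 : Fin m → ℝ)) {w : (Fin m → ℝ) → ℝ≥0∞} (hw : Measurable w)
    (hwa : ∀ (s : ℝ) (x : Fin m → ℝ), 0 < s → w (s • x) = ENNReal.ofReal (s ^ a) * w x)
    (hfin : ∫⁻ x in K, w x ≠ ∞) :
    (volume.withDensity w).map (gauge K) = (∫⁻ x in K, w x) • G3_nu (m + a) := by
  have hg : Measurable (gauge K) := (continuous_gauge hK.2.1 h0).measurable
  have hpos : ∀ s : ℝ, 0 < s → (volume.withDensity w).map (gauge K) (Iic s) =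
      ENNReal.ofReal (s ^ (m + a)) * ∫⁻ x in K, w x := by
    intro s hs
    rw [Measure.map_apply hg measurableSet_Iic, withDensity_apply _ (hg measurableSet_Iic)]
    exact gauge_sub hK h0 hw hwa hs
  have hneg : (volume.withDensity w).map (gauge K) (Iic 0) = 0 := by
    have h1 : ∀ s : ℝ, 0 < s → (volume.withDensity w).map (gauge K) (Iic 0) ≤
        ENNReal.ofReal (s ^ (m + a)) * ∫⁻ x in K, w x := fun s hs =>
      (measure_mono (Iic_subset_Iic.2 hs.le)).trans (hpos s hs).le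
    have h2 : Filter.Tendsto (fun s : ℝ => ENNReal.ofReal (s ^ (m + a)) * ∫⁻ x in K, w x)
        (nhdsWithin 0 (Ioi 0)) (nhds (ENNReal.ofReal ((0 : ℝ) ^ (m + a)) * ∫⁻ x in K, w x)) := by
      refine ENNReal.Tendsto.mul_const ?_ (Or.inr hfin)
      have hc : Continuous fun s : ℝ => ENNReal.ofReal (s ^ (m + a)) :=
        ENNReal.continuous_ofReal.comp (continuous_pow _)
      exact (hc.tendsto 0).mono_left nhdsWithin_le_nhds
    rw [zero_pow (by omega), ENNReal.ofReal_zero, zero_mul] at h2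
    refine le_antisymm (ge_of_tendsto h2 ?_) zero_le
    filter_upwards [self_mem_nhdsWithin] with s hs
    exact h1 s hs
  refine Measure.ext_of_generateFrom_of_iUnion (range Iic) (fun n : ℕ => Iic ((n : ℝ) + 1)) ?_
    isPiSystem_Iic ?_ (fun n => mem_range_self _) ?_ ?_
  · rw [← borel_eq_generateFrom_Iic]
    exact BorelSpace.measurable_eq
  · rw [eq_univ_iff_forall]
    intro x
    obtain ⟨n, hn⟩ := exists_nat_ge x
    exact mem_iUnion.2 ⟨n, by
      rw [mem_Iic]
      linarith⟩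
  · intro n
    rw [hpos _ (by positivity)]
    exact ENNReal.mul_ne_top ENNReal.ofReal_ne_top hfin
  · rintro _ ⟨s, rfl⟩
    rw [Measure.smul_apply, G3_nu_Iic _ (by omega), smul_eq_mul]
    rcases le_or_gt s 0 with h | h
    · rw [max_eq_right h, zero_pow (by omega), ENNReal.ofReal_zero, mul_zero]
      exact le_antisymm ((measure_mono (Iic_subset_Iic.2 h)).trans hneg.le) zero_le
    · rw [max_eq_left h.le, hpos s h, mul_comm]

/-- G3. polar integration: both sides are integrals of `φ` against locally finite measures on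
`ℝ` (the image of `w dx` under the gauge; density `(m+a) s^(m+a-1)` on `(0,∞)`) that agree on
`(-∞, s]` for every `s` (G2; for `s ≤ 0` both give `0`, as `gauge K x = 0` only for `x = 0`). -/
theorem polar {m a : ℕ} (hm : 1 ≤ m) {K : Set (Fin m → ℝ)} (hK : IsBody K)
    (h0 : K ∈ nhds (0 : Fin m → ℝ)) {w : (Fin m → ℝ) → ℝ≥0∞} (hw : Measurable w)
    (hwa : ∀ (s : ℝ) (x : Fin m → ℝ), 0 < s → w (s • x) = ENNReal.ofReal (s ^ a) * w x)
    (hfin : ∫⁻ x in K, w x ≠ ∞) {φ : ℝ → ℝ≥0∞} (hφ : Measurable φ) :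
    ∫⁻ x, φ (gauge K x) * w x =
      (∫⁻ x in K, w x) *
        ∫⁻ s in Ioi (0 : ℝ), φ s * ENNReal.ofReal (((m + a : ℕ) : ℝ) * s ^ (m + a - 1)) := by
  have hg : Measurable (gauge K) := (continuous_gauge hK.2.1 h0).measurable
  have h1 : ∫⁻ x, φ (gauge K x) * w x = ∫⁻ x, φ (gauge K x) ∂(volume.withDensity w) := by
    have h2 := lintegral_withDensity_eq_lintegral_mul volume hw (hφ.comp hg)
    refine Eq.trans ?_ h2.symm
    refine lintegral_congr fun x => ?_
    exact mul_comm _ _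
  rw [h1, ← lintegral_map hφ hg, G3_eq hm hK h0 hw hwa hfin, lintegral_smul_measure, smul_eq_mul]
  congr 1
  unfold G3_nu
  rw [lintegral_withDensity_eq_lintegral_mul _ (G3_meas (m + a)) hφ]
  refine lintegral_congr fun x => ?_
  exact mul_comm _ _

end Vale.Agent.P254D
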