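import Vale.Agent.P254D.Vol
import Vale.Agent.P254D.Cub
import Vale.Agent.P254D.Bod
import Vale.Agent.P254B.Trn4

open MeasureTheory Set Vale.Agent.P254 Vale.Agent.P254U Vale.Agent.P254B
open scoped ENNReal

namespace Vale.Agent.P254D

/-- M0. `MomProp` in terms of `am` -/
theorem momProp_iff {n : ℕ} (K : Set (Fin n → ℝ)) :
    MomProp K ↔ ∏ i, (4 * ((am K i).toReal / (volume K).toReal)) ≤ (volume K).toReal := by
  have h : ∀ i, ∫ x in K, |x i| = (am K i).toReal := by
    intro i
    have hcont : Continuous fun x : Fin n → ℝ => |x i| := by fun_prop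
    rw [integral_eq_lintegral_of_nonneg_ae (Filter.Eventually.of_forall fun x => abs_nonneg _)
      hcont.aestronglyMeasurable]
    rfl
  unfold MomProp
  simp only [h]

/-- M1. the planar weighted inequality, from `bip_mom` for the cubes -/
theorem star {m n : ℕ} (hm : 1 ≤ m) (hn : 1 ≤ n) {G : Set (ℝ × ℝ)} (hG : Pl G) :
    ((wA G (m + 1) n).toReal / (wA G m n).toReal) ^ m *
      ((wA G m (n + 1)).toReal / (wA G m n).toReal) ^ n ≤ (wA G m n).toReal := by
  have h1 : MomProp (dsum G (cube m) (cube n)) := by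
    rw [cube_dsum hm hn hG]
    exact bip_mom (fun _ _ => hG) hm hn
  rw [momProp_iff, Fin.prod_univ_add] at h1
  have hv := vol_dsum hm hn hG (cube_body m) (cube_body n) (cube_uncond m) (cube_uncond n)
  have hvr : (volume (dsum G (cube m) (cube n))).toReal =
      2 ^ m * 2 ^ n * (wA G m n).toReal := by
    rw [hv, cube_vol, cube_vol, ENNReal.toReal_mul, ENNReal.toReal_mul]
    simp
  have hc : ∀ (k : ℕ) (i : Fin k), (am (cube k) i).toReal = 2 ^ k / 2 := by
    intro k i
    have h := congrArg ENNReal.toReal (cube_am k i)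
    rw [ENNReal.toReal_mul, ENNReal.toReal_pow] at h
    simp only [ENNReal.toReal_ofNat] at h
    linarith
  have ha : ∀ i : Fin m, (am (dsum G (cube m) (cube n)) (Fin.castAdd n i)).toReal =
      2 ^ m / 2 * 2 ^ n * (wA G (m + 1) n).toReal := by
    intro i
    rw [am_dsum hm hn hG (cube_body m) (cube_body n) (cube_uncond m) (cube_uncond n) i, cube_vol,
      ENNReal.toReal_mul, ENNReal.toReal_mul, hc]
    simp
  have hb : ∀ j : Fin n, (am (dsum G (cube m) (cube n)) (Fin.natAdd m j)).toReal =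
      2 ^ m * (2 ^ n / 2) * (wA G m (n + 1)).toReal := by
    intro j
    rw [am_dsum' hm hn hG (cube_body m) (cube_body n) (cube_uncond m) (cube_uncond n) j, cube_vol,
      ENNReal.toReal_mul, ENNReal.toReal_mul, hc]
    simp
  simp only [hvr, ha, hb] at h1
  have e1 : 4 * (2 ^ m / 2 * 2 ^ n * (wA G (m + 1) n).toReal /
      (2 ^ m * 2 ^ n * (wA G m n).toReal)) =
      2 * ((wA G (m + 1) n).toReal / (wA G m n).toReal) := by
    have : (2 : ℝ) ^ m / 2 * 2 ^ n * (wA G (m + 1) n).toReal =
        (2 ^ m * 2 ^ n) * ((wA G (m + 1) n).toReal / 2) := by ring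
    rw [this, mul_div_mul_left _ _ (by positivity)]
    ring
  have e2 : 4 * (2 ^ m * (2 ^ n / 2) * (wA G m (n + 1)).toReal /
      (2 ^ m * 2 ^ n * (wA G m n).toReal)) =
      2 * ((wA G m (n + 1)).toReal / (wA G m n).toReal) := by
    have : (2 : ℝ) ^ m * (2 ^ n / 2) * (wA G m (n + 1)).toReal =
        (2 ^ m * 2 ^ n) * ((wA G m (n + 1)).toReal / 2) := by ring
    rw [this, mul_div_mul_left _ _ (by positivity)]
    ring
  rw [e1, e2] at h1
  simp only [Finset.prod_const, Finset.card_univ, Fintype.card_fin] at h1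
  rw [mul_pow, mul_pow] at h1
  have h2 : (2 : ℝ) ^ m * 2 ^ n *
      (((wA G (m + 1) n).toReal / (wA G m n).toReal) ^ m *
      ((wA G m (n + 1)).toReal / (wA G m n).toReal) ^ n) ≤
      2 ^ m * 2 ^ n * (wA G m n).toReal := by
    calc _ = 2 ^ m * ((wA G (m + 1) n).toReal / (wA G m n).toReal) ^ m *
        (2 ^ n * ((wA G m (n + 1)).toReal / (wA G m n).toReal) ^ n) := by ring
      _ ≤ _ := h1
  exact le_of_mul_le_mul_left h2 (by positivity)

/-- M2 -/
theorem dsum_mom {m n : ℕ} (hm : 1 ≤ m) (hn : 1 ≤ n) {G : Set (ℝ × ℝ)} (hG : Pl G)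
    {K : Set (Fin m → ℝ)} {L : Set (Fin n → ℝ)} (hK : IsBody K) (hL : IsBody L)
    (hKs : Unconditional K) (hLs : Unconditional L) (hKm : MomProp K) (hLm : MomProp L) :
    MomProp (dsum G K L) := by
  rw [momProp_iff] at hKm hLm ⊢
  rw [Fin.prod_univ_add]
  have hst := star hm hn hG
  set k := (volume K).toReal with hk
  set l := (volume L).toReal with hl
  set A := (wA G m n).toReal with hA
  set A₁ := (wA G (m + 1) n).toReal with hA₁
  set A₂ := (wA G m (n + 1)).toReal with hA₂
  have hk0 : 0 < k := ENNReal.toReal_pos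
    (Measure.measure_pos_of_nonempty_interior volume hK.2.2).ne' hK.1.measure_lt_top.ne
  have hl0 : 0 < l := ENNReal.toReal_pos
    (Measure.measure_pos_of_nonempty_interior volume hL.2.2).ne' hL.1.measure_lt_top.ne
  have hA0 : 0 ≤ A := ENNReal.toReal_nonneg
  have hA10 : 0 ≤ A₁ := ENNReal.toReal_nonneg
  have hA20 : 0 ≤ A₂ := ENNReal.toReal_nonneg
  have hv : (volume (dsum G K L)).toReal = k * l * A := by
    rw [vol_dsum hm hn hG hK hL hKs hLs, ENNReal.toReal_mul, ENNReal.toReal_mul]
  have ha : ∀ i : Fin m, (am (dsum G K L) (Fin.castAdd n i)).toReal =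
      (am K i).toReal * l * A₁ := by
    intro i
    rw [am_dsum hm hn hG hK hL hKs hLs i, ENNReal.toReal_mul, ENNReal.toReal_mul]
  have hb : ∀ j : Fin n, (am (dsum G K L) (Fin.natAdd m j)).toReal =
      k * (am L j).toReal * A₂ := by
    intro j
    rw [am_dsum' hm hn hG hK hL hKs hLs j, ENNReal.toReal_mul, ENNReal.toReal_mul]
  simp only [hv, ha, hb]
  have e1 : ∀ i : Fin m, 4 * ((am K i).toReal * l * A₁ / (k * l * A)) =
      (4 * ((am K i).toReal / k)) * (A₁ / A) := by
    intro i
    have h1 : (am K i).toReal * l * A₁ = l * ((am K i).toReal * A₁) := by ring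
    have h2 : k * l * A = l * (k * A) := by ring
    rw [h1, h2, mul_div_mul_left _ _ hl0.ne', mul_div_mul_comm]
    ring
  have e2 : ∀ j : Fin n, 4 * (k * (am L j).toReal * A₂ / (k * l * A)) =
      (4 * ((am L j).toReal / l)) * (A₂ / A) := by
    intro j
    have h1 : k * (am L j).toReal * A₂ = k * ((am L j).toReal * A₂) := by ring
    have h2 : k * l * A = k * (l * A) := by ring
    rw [h1, h2, mul_div_mul_left _ _ hk0.ne', mul_div_mul_comm]
    ring
  simp only [e1, e2]
  have p1 : ∏ i : Fin m, (4 * ((am K i).toReal / k) * (A₁ / A)) =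
      (∏ i, (4 * ((am K i).toReal / k))) * (A₁ / A) ^ m := by
    rw [Finset.prod_mul_distrib (f := fun i => 4 * ((am K i).toReal / k)),
      Finset.prod_const, Finset.card_univ, Fintype.card_fin]
  have p2 : ∏ j : Fin n, (4 * ((am L j).toReal / l) * (A₂ / A)) =
      (∏ j, (4 * ((am L j).toReal / l))) * (A₂ / A) ^ n := by
    rw [Finset.prod_mul_distrib (f := fun j => 4 * ((am L j).toReal / l)),
      Finset.prod_const, Finset.card_univ, Fintype.card_fin]
  rw [p1, p2]
  have hP1 : 0 ≤ ∏ i, (4 * ((am K i).toReal / k)) := Finset.prod_nonneg fun i _ => by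
    have : 0 ≤ (am K i).toReal := ENNReal.toReal_nonneg
    positivity
  have hP2 : 0 ≤ ∏ j, (4 * ((am L j).toReal / l)) := Finset.prod_nonneg fun j _ => by
    have : 0 ≤ (am L j).toReal := ENNReal.toReal_nonneg
    positivity
  calc (∏ i, (4 * ((am K i).toReal / k))) * (A₁ / A) ^ m *
        ((∏ j, (4 * ((am L j).toReal / l))) * (A₂ / A) ^ n)
      = ((∏ i, (4 * ((am K i).toReal / k))) * ∏ j, (4 * ((am L j).toReal / l))) *
        ((A₁ / A) ^ m * (A₂ / A) ^ n) := by ring
    _ ≤ (k * l) * A := by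
        refine mul_le_mul (mul_le_mul hKm hLm hP2 hk0.le) hst (by positivity) (by positivity)

end Vale.Agent.P254D
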