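import Vale.Agent.P254D.Gau
import Vale.Agent.P254U.ProdU

open MeasureTheory Set Vale.Agent.P254 Vale.Agent.P254U Vale.Agent.P254B
open scoped ENNReal

namespace Vale.Agent.P254D

/-- V0. `(gauge K x, gauge L y) ∈ G`, Fubini on the product, `polar` twice (gauges are `≥ 0`;
weights `w₁` of degree `a` on the first, `w₂` of degree `b` on the second factor). -/
theorem lint_dsum {m n a b : ℕ} (hm : 1 ≤ m) (hn : 1 ≤ n) {G : Set (ℝ × ℝ)} (hG : Pl G)
    {K : Set (Fin m → ℝ)} {L : Set (Fin n → ℝ)} (hK : IsBody K) (hL : IsBody L)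
    (hK0 : K ∈ nhds (0 : Fin m → ℝ)) (hL0 : L ∈ nhds (0 : Fin n → ℝ))
    {w₁ : (Fin m → ℝ) → ℝ≥0∞} (hw₁ : Measurable w₁)
    (ha : ∀ (s : ℝ) (x : Fin m → ℝ), 0 < s → w₁ (s • x) = ENNReal.ofReal (s ^ a) * w₁ x)
    (hfin₁ : ∫⁻ x in K, w₁ x ≠ ∞)
    {w₂ : (Fin n → ℝ) → ℝ≥0∞} (hw₂ : Measurable w₂)
    (hb : ∀ (s : ℝ) (x : Fin n → ℝ), 0 < s → w₂ (s • x) = ENNReal.ofReal (s ^ b) * w₂ x)
    (hfin₂ : ∫⁻ x in L, w₂ x ≠ ∞) :
    ∫⁻ x in dsum G K L, w₁ (fun i => x (Fin.castAdd n i)) * w₂ (fun j => x (Fin.natAdd m j)) =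
      (∫⁻ x in K, w₁ x) * (∫⁻ x in L, w₂ x) * wA G (m + a) (n + b) := by
  have hgK : Measurable (gauge K) := (continuous_gauge hK.2.1 hK0).measurable
  have hgL : Measurable (gauge L) := (continuous_gauge hL.2.1 hL0).measurable
  have hGm : MeasurableSet G := hG.compact.isClosed.measurableSet
  obtain ⟨I, hIdef⟩ : ∃ I : ℝ × ℝ → ℝ≥0∞, I = G.indicator (fun _ => (1 : ℝ≥0∞)) := ⟨_, rfl⟩
  have hI : Measurable I := by
    rw [hIdef]
    exact measurable_const.indicator hGm
  have hml : Measurable (fun x : Fin (m + n) → ℝ => fun i : Fin m => x (Fin.castAdd n i)) :=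
    measurable_pi_lambda _ fun i => measurable_pi_apply _
  have hmr : Measurable (fun x : Fin (m + n) → ℝ => fun j : Fin n => x (Fin.natAdd m j)) :=
    measurable_pi_lambda _ fun i => measurable_pi_apply _
  have hdm : MeasurableSet (dsum G K L) := ((hgK.comp hml).prodMk (hgL.comp hmr)) hGm
  obtain ⟨J, hJdef⟩ : ∃ J : ℝ → ℝ≥0∞, J = fun s => ∫⁻ t in Ioi (0 : ℝ),
      I (s, t) * ENNReal.ofReal (((n + b : ℕ) : ℝ) * t ^ (n + b - 1)) := ⟨_, rfl⟩
  have hB : Measurable (fun t : ℝ => ENNReal.ofReal (((n + b : ℕ) : ℝ) * t ^ (n + b - 1))) := by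
    fun_prop
  have hA : Measurable (fun t : ℝ => ENNReal.ofReal (((m + a : ℕ) : ℝ) * t ^ (m + a - 1))) := by
    fun_prop
  have hJ : Measurable J := by
    rw [hJdef]
    exact Measurable.lintegral_prod_right' (f := fun p : ℝ × ℝ =>
      I p * ENNReal.ofReal (((n + b : ℕ) : ℝ) * p.2 ^ (n + b - 1)))
      (hI.mul (hB.comp measurable_snd))
  calc ∫⁻ x in dsum G K L, w₁ (fun i => x (Fin.castAdd n i)) * w₂ (fun j => x (Fin.natAdd m j))
      = ∫⁻ x : Fin (m + n) → ℝ, I (gauge K (fun i => x (Fin.castAdd n i)),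
          gauge L (fun j => x (Fin.natAdd m j))) *
          (w₁ (fun i => x (Fin.castAdd n i)) * w₂ (fun j => x (Fin.natAdd m j))) := by
        rw [← lintegral_indicator hdm]
        refine lintegral_congr fun x => ?_
        by_cases hx : x ∈ dsum G K L
        · have h1 : I (gauge K (fun i => x (Fin.castAdd n i)),
              gauge L (fun j => x (Fin.natAdd m j))) = 1 := by
            have hx' : (gauge K (fun i => x (Fin.castAdd n i)),
              gauge L (fun j => x (Fin.natAdd m j))) ∈ G := hx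
            rw [hIdef, indicator_of_mem hx']
          rw [indicator_of_mem hx, h1, one_mul]
        · have h1 : I (gauge K (fun i => x (Fin.castAdd n i)),
              gauge L (fun j => x (Fin.natAdd m j))) = 0 := by
            have hx' : (gauge K (fun i => x (Fin.castAdd n i)),
              gauge L (fun j => x (Fin.natAdd m j))) ∉ G := hx
            rw [hIdef, indicator_of_notMem hx']
          rw [indicator_of_notMem hx, h1, zero_mul]
    _ = ∫⁻ p : (Fin m → ℝ) × (Fin n → ℝ), I (gauge K p.1, gauge L p.2) * (w₁ p.1 * w₂ p.2) := by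
        rw [← (PR3_mp m n).lintegral_comp_emb (PR3_e m n).measurableEmbedding]
        refine lintegral_congr fun p => ?_
        have h1 : (fun i => PR3_e m n p (Fin.castAdd n i)) = p.1 := funext (PR3_left m n p)
        have h2 : (fun j => PR3_e m n p (Fin.natAdd m j)) = p.2 := funext (PR3_right m n p)
        simp only [h1, h2]
    _ = ∫⁻ x : Fin m → ℝ, ∫⁻ y : Fin n → ℝ, I (gauge K x, gauge L y) * (w₁ x * w₂ y) := by
        rw [Measure.volume_eq_prod]
        have hmeas : Measurable (fun p : (Fin m → ℝ) × (Fin n → ℝ) =>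
            I (gauge K p.1, gauge L p.2) * (w₁ p.1 * w₂ p.2)) :=
          (hI.comp ((hgK.comp measurable_fst).prodMk (hgL.comp measurable_snd))).mul
            ((hw₁.comp measurable_fst).mul (hw₂.comp measurable_snd))
        exact lintegral_prod _ hmeas.aemeasurable
    _ = ∫⁻ x : Fin m → ℝ, ((∫⁻ y in L, w₂ y) * J (gauge K x)) * w₁ x := by
        refine lintegral_congr fun x => ?_
        have hm1 : Measurable (fun t : ℝ => I (gauge K x, t)) := hI.comp measurable_prodMk_left
        have h1 : ∫⁻ y : Fin n → ℝ, I (gauge K x, gauge L y) * (w₁ x * w₂ y) =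
            w₁ x * ∫⁻ y : Fin n → ℝ, I (gauge K x, gauge L y) * w₂ y := by
          have hm2 : Measurable (fun y : Fin n → ℝ => I (gauge K x, gauge L y) * w₂ y) :=
            (hm1.comp hgL).mul hw₂
          rw [← lintegral_const_mul _ hm2]
          refine lintegral_congr fun y => ?_
          ring
        have h2 := polar hn hL hL0 hw₂ hb hfin₂ hm1
        have h3 : J (gauge K x) = ∫⁻ t in Ioi (0 : ℝ),
            I (gauge K x, t) * ENNReal.ofReal (((n + b : ℕ) : ℝ) * t ^ (n + b - 1)) := by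
          rw [hJdef]
        rw [h1, h2, ← h3, mul_comm]
    _ = (∫⁻ x in K, w₁ x) * ∫⁻ s in Ioi (0 : ℝ), ((∫⁻ y in L, w₂ y) * J s) *
          ENNReal.ofReal (((m + a : ℕ) : ℝ) * s ^ (m + a - 1)) :=
        polar hm hK hK0 hw₁ ha hfin₁ (φ := fun s => (∫⁻ y in L, w₂ y) * J s)
          (hJ.const_mul _)
    _ = (∫⁻ x in K, w₁ x) * (∫⁻ x in L, w₂ x) * wA G (m + a) (n + b) := by
        rw [mul_assoc]
        congr 1
        unfold wA
        rw [← hIdef, ← lintegral_const_mul]
        · refine lintegral_congr fun s => ?_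
          have h3 : ∫⁻ t in Ioi (0 : ℝ), I (s, t) *
              (ENNReal.ofReal (((m + a : ℕ) : ℝ) * s ^ (m + a - 1)) *
                ENNReal.ofReal (((n + b : ℕ) : ℝ) * t ^ (n + b - 1))) =
              ENNReal.ofReal (((m + a : ℕ) : ℝ) * s ^ (m + a - 1)) * J s := by
            have h5 : J s = ∫⁻ t in Ioi (0 : ℝ),
                I (s, t) * ENNReal.ofReal (((n + b : ℕ) : ℝ) * t ^ (n + b - 1)) := by
              rw [hJdef]
            have h6 : Measurable (fun t : ℝ => I (s, t) *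
                ENNReal.ofReal (((n + b : ℕ) : ℝ) * t ^ (n + b - 1))) :=
              (hI.comp measurable_prodMk_left).mul hB
            rw [h5, ← lintegral_const_mul _ h6]
            refine lintegral_congr fun t => ?_
            ring
          rw [h3]
          ring
        · have h4 : (fun s : ℝ => ∫⁻ t in Ioi (0 : ℝ), I (s, t) *
              (ENNReal.ofReal (((m + a : ℕ) : ℝ) * s ^ (m + a - 1)) *
                ENNReal.ofReal (((n + b : ℕ) : ℝ) * t ^ (n + b - 1)))) =
              fun s => ENNReal.ofReal (((m + a : ℕ) : ℝ) * s ^ (m + a - 1)) * J s := by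
            funext s
            have h5 : J s = ∫⁻ t in Ioi (0 : ℝ),
                I (s, t) * ENNReal.ofReal (((n + b : ℕ) : ℝ) * t ^ (n + b - 1)) := by
              rw [hJdef]
            have h6 : Measurable (fun t : ℝ => I (s, t) *
                ENNReal.ofReal (((n + b : ℕ) : ℝ) * t ^ (n + b - 1))) :=
              (hI.comp measurable_prodMk_left).mul hB
            rw [h5, ← lintegral_const_mul _ h6]
            refine lintegral_congr fun t => ?_
            ring
          rw [h4]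
          exact hA.mul hJ

theorem V1_one {m : ℕ} (K : Set (Fin m → ℝ)) : ∫⁻ _ in K, (1 : ℝ≥0∞) = volume K := by
  simp

theorem V1_one_fin {m : ℕ} {K : Set (Fin m → ℝ)} (hK : IsBody K) :
    ∫⁻ _ in K, (1 : ℝ≥0∞) ≠ ∞ := by
  rw [V1_one]
  exact hK.1.measure_lt_top.ne

theorem V1_abs_fin {m : ℕ} {K : Set (Fin m → ℝ)} (hK : IsBody K) (i : Fin m) :
    ∫⁻ x in K, ENNReal.ofReal |x i| ≠ ∞ := by
  obtain ⟨R, hR⟩ := hK.1.isBounded.exists_norm_le
  have h1 : ∫⁻ x in K, ENNReal.ofReal |x i| ≤ ∫⁻ _ in K, ENNReal.ofReal R := by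
    refine setLIntegral_mono measurable_const fun x hx => ENNReal.ofReal_le_ofReal ?_
    exact (norm_le_pi_norm x i).trans (hR x hx)
  rw [setLIntegral_const] at h1
  exact ne_top_of_le_ne_top
    (ENNReal.mul_ne_top ENNReal.ofReal_ne_top hK.1.measure_lt_top.ne) h1

theorem V1_abs_meas {m : ℕ} (i : Fin m) :
    Measurable (fun x : Fin m → ℝ => ENNReal.ofReal |x i|) := by
  fun_prop

theorem V1_abs_hom {m : ℕ} (i : Fin m) (s : ℝ) (x : Fin m → ℝ) (hs : 0 < s) :
    ENNReal.ofReal |(s • x) i| = ENNReal.ofReal (s ^ 1) * ENNReal.ofReal |x i| := by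
  rw [Pi.smul_apply, smul_eq_mul, abs_mul, abs_of_pos hs, pow_one, ENNReal.ofReal_mul hs.le]

/-- V1 (corollaries of V0) -/
theorem vol_dsum {m n : ℕ} (hm : 1 ≤ m) (hn : 1 ≤ n) {G : Set (ℝ × ℝ)} (hG : Pl G)
    {K : Set (Fin m → ℝ)} {L : Set (Fin n → ℝ)} (hK : IsBody K) (hL : IsBody L)
    (hKs : Unconditional K) (hLs : Unconditional L) :
    volume (dsum G K L) = volume K * volume L * wA G m n := by
  have h := lint_dsum (a := 0) (b := 0) hm hn hG hK hL (nhds_zero hK hKs) (nhds_zero hL hLs)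
    (w₁ := fun _ => 1) measurable_const (by simp) (V1_one_fin hK)
    (w₂ := fun _ => 1) measurable_const (by simp) (V1_one_fin hL)
  simp only [mul_one, V1_one, add_zero] at h
  exact h

theorem am_dsum {m n : ℕ} (hm : 1 ≤ m) (hn : 1 ≤ n) {G : Set (ℝ × ℝ)} (hG : Pl G)
    {K : Set (Fin m → ℝ)} {L : Set (Fin n → ℝ)} (hK : IsBody K) (hL : IsBody L)
    (hKs : Unconditional K) (hLs : Unconditional L) (i : Fin m) :
    am (dsum G K L) (Fin.castAdd n i) = am K i * volume L * wA G (m + 1) n := by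
  have h := lint_dsum (a := 1) (b := 0) hm hn hG hK hL (nhds_zero hK hKs) (nhds_zero hL hLs)
    (w₁ := fun x => ENNReal.ofReal |x i|) (V1_abs_meas i) (fun s x hs => V1_abs_hom i s x hs)
    (V1_abs_fin hK i) (w₂ := fun _ => 1) measurable_const (by simp) (V1_one_fin hL)
  simp only [mul_one, V1_one, add_zero] at h
  exact h

theorem am_dsum' {m n : ℕ} (hm : 1 ≤ m) (hn : 1 ≤ n) {G : Set (ℝ × ℝ)} (hG : Pl G)
    {K : Set (Fin m → ℝ)} {L : Set (Fin n → ℝ)} (hK : IsBody K) (hL : IsBody L)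
    (hKs : Unconditional K) (hLs : Unconditional L) (j : Fin n) :
    am (dsum G K L) (Fin.natAdd m j) = volume K * am L j * wA G m (n + 1) := by
  have h := lint_dsum (a := 0) (b := 1) hm hn hG hK hL (nhds_zero hK hKs) (nhds_zero hL hLs)
    (w₁ := fun _ => 1) measurable_const (by simp) (V1_one_fin hK)
    (w₂ := fun x => ENNReal.ofReal |x j|) (V1_abs_meas j) (fun s x hs => V1_abs_hom j s x hs)
    (V1_abs_fin hL j)
  simp only [one_mul, V1_one, add_zero] at h
  exact h

end Vale.Agent.P254D
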